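/-
helper46 — S0076 log-spread squad (coordinator helper68), leaf GL3: the numerical sum over the
dyadic scales.  Same name and signature as `Crest.Agent.Helper68.S0076.Blueprint.sum_K_le`.
-/
import Mathlib

set_option autoImplicit false

namespace Crest.Agent.Helper46.S0076

open Finset

/-- `e^50 ≥ 5.125 · 10^21`. -/
theorem exp_fifty_ge : (5125 : ℝ) * 10 ^ 18 ≤ Real.exp 50 := by
  have h1 : (2.7182 : ℝ) ≤ Real.exp 1 := by
    have := Real.exp_one_gt_d9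
    linarith
  have h2 : Real.exp 50 = Real.exp 1 ^ 50 := by
    rw [← Real.exp_nat_mul]
    norm_num
  rw [h2]
  calc (5125 : ℝ) * 10 ^ 18 ≤ (2.7182 : ℝ) ^ 50 := by norm_num
    _ ≤ Real.exp 1 ^ 50 := pow_le_pow_left₀ (by norm_num) h1 50

/-- Closed form of the majorant sum. -/
theorem sum_majorant (k : ℕ) :
    ∑ j ∈ Finset.range (k + 1), (41 : ℝ) * ((j : ℝ) + 2)
      = 41 * (((k : ℝ) + 1) * ((k : ℝ) + 4) / 2) := by
  induction k with
  | zero => norm_num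
  | succ k ih =>
    rw [Finset.sum_range_succ, ih]
    push_cast
    ring

/-- Each dyadic term is at most `41 (j + 2)`. -/
theorem term_le (h j : ℕ) (hj : 2 ^ j ≤ h) :
    41 * max 1 (Real.log (2 * (h : ℝ) / ((h / 2 ^ j : ℕ) : ℝ))) ≤ 41 * ((j : ℝ) + 2) := by
  have hpow : 0 < 2 ^ j := Nat.pos_of_ne_zero (by positivity)
  have hd1 : 1 ≤ h / 2 ^ j := (Nat.one_le_div_iff hpow).mpr hj
  -- `h < 2^j * (d + 1) ≤ 2^(j+1) * d`
  have hlt : h < 2 ^ j * (h / 2 ^ j + 1) := Nat.lt_mul_div_succ h hpow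
  have hle : h ≤ 2 ^ (j + 1) * (h / 2 ^ j) := by
    have : 2 ^ j * (h / 2 ^ j + 1) ≤ 2 ^ (j + 1) * (h / 2 ^ j) := by
      rw [pow_succ, mul_assoc]
      exact Nat.mul_le_mul_left _ (by omega)
    omega
  have hdpos : (0 : ℝ) < ((h / 2 ^ j : ℕ) : ℝ) := by exact_mod_cast hd1
  have hleR : (h : ℝ) ≤ (2 : ℝ) ^ (j + 1) * ((h / 2 ^ j : ℕ) : ℝ) := by exact_mod_cast hle
  have hratio : 2 * (h : ℝ) / ((h / 2 ^ j : ℕ) : ℝ) ≤ (2 : ℝ) ^ (j + 2) := by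
    rw [div_le_iff₀ hdpos]
    calc 2 * (h : ℝ) ≤ 2 * ((2 : ℝ) ^ (j + 1) * ((h / 2 ^ j : ℕ) : ℝ)) := by linarith
      _ = (2 : ℝ) ^ (j + 2) * ((h / 2 ^ j : ℕ) : ℝ) := by ring
  have hhpos : (0 : ℝ) < (h : ℝ) := by
    have : 0 < h := lt_of_lt_of_le hpow hj
    exact_mod_cast this
  have hratio_pos : 0 < 2 * (h : ℝ) / ((h / 2 ^ j : ℕ) : ℝ) := by positivity
  have hlog : Real.log (2 * (h : ℝ) / ((h / 2 ^ j : ℕ) : ℝ)) ≤ (j : ℝ) + 2 := by
    calc Real.log (2 * (h : ℝ) / ((h / 2 ^ j : ℕ) : ℝ)) ≤ Real.log ((2 : ℝ) ^ (j + 2)) :=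
          Real.log_le_log hratio_pos hratio
      _ = ((j + 2 : ℕ) : ℝ) * Real.log 2 := Real.log_pow _ _
      _ ≤ ((j + 2 : ℕ) : ℝ) * 1 := by
          have hl2 : Real.log 2 ≤ 1 := by
            have := Real.log_two_lt_d9
            linarith
          exact mul_le_mul_of_nonneg_left hl2 (Nat.cast_nonneg _)
      _ = (j : ℝ) + 2 := by push_cast; ring
  have hmax : max 1 (Real.log (2 * (h : ℝ) / ((h / 2 ^ j : ℕ) : ℝ))) ≤ (j : ℝ) + 2 := by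
    refine max_le ?_ hlog
    have : (0 : ℝ) ≤ (j : ℝ) := Nat.cast_nonneg j
    linarith
  linarith

theorem sum_K_le (h : ℕ) (hh : 1 ≤ h) (hsmall : Nat.log 2 h + 4 ≤ 8 * 10 ^ 21) :
    ∑ j ∈ Finset.range (Nat.log 2 h + 1),
        41 * max 1 (Real.log (2 * (h : ℝ) / ((h / 2 ^ j : ℕ) : ℝ)))
      ≤ 32 * Real.exp 50 * (1 + Real.logb 2 (h : ℝ)) := by
  set k := Nat.log 2 h with hk
  have hh0 : h ≠ 0 := by omega
  have hpowk : 2 ^ k ≤ h := Nat.pow_log_le_self 2 hh0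
  -- termwise bound and closed form
  have hsum : ∑ j ∈ Finset.range (k + 1),
        41 * max 1 (Real.log (2 * (h : ℝ) / ((h / 2 ^ j : ℕ) : ℝ)))
      ≤ 41 * (((k : ℝ) + 1) * ((k : ℝ) + 4) / 2) := by
    rw [← sum_majorant k]
    refine Finset.sum_le_sum (fun j hj => ?_)
    have hjk : j ≤ k := Nat.lt_succ_iff.mp (Finset.mem_range.mp hj)
    exact term_le h j (le_trans (Nat.pow_le_pow_right (by norm_num) hjk) hpowk)
  -- `k ≤ logb 2 h`
  have hhpos : (0 : ℝ) < (h : ℝ) := by exact_mod_cast Nat.pos_of_ne_zero hh0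
  have hlogb : (k : ℝ) ≤ Real.logb 2 (h : ℝ) := by
    rw [Real.le_logb_iff_rpow_le (by norm_num) hhpos, Real.rpow_natCast]
    exact_mod_cast hpowk
  -- numerics
  have hk4 : (k : ℝ) + 4 ≤ 8 * 10 ^ 21 := by exact_mod_cast hsmall
  have hk0 : (0 : ℝ) ≤ (k : ℝ) := Nat.cast_nonneg k
  have hexp := exp_fifty_ge
  calc ∑ j ∈ Finset.range (k + 1),
        41 * max 1 (Real.log (2 * (h : ℝ) / ((h / 2 ^ j : ℕ) : ℝ)))
      ≤ 41 * (((k : ℝ) + 1) * ((k : ℝ) + 4) / 2) := hsum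
    _ ≤ 32 * (5125 * 10 ^ 18) * (1 + (k : ℝ)) := by nlinarith
    _ ≤ 32 * Real.exp 50 * (1 + (k : ℝ)) := by
        have : (0 : ℝ) ≤ 1 + (k : ℝ) := by linarith
        nlinarith
    _ ≤ 32 * Real.exp 50 * (1 + Real.logb 2 (h : ℝ)) := by
        have : (0 : ℝ) ≤ 32 * Real.exp 50 := by positivity
        nlinarith

end Crest.Agent.Helper46.S0076
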