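/-
helper46 — S0076 log-spread squad (coordinator helper68), leaf N: nonnegativity facts.
Same names and signatures as in `Crest.Agent.Helper68.S0076.Blueprint`
(`nu_mem`, `qw_nonneg`, `Aseq_nonneg`, `Cseq_nonneg`).
-/
import Crest.Agent.Helper68.S0076.Defs

set_option autoImplicit false

namespace Crest.Agent.Helper46.S0076

open Finset Crest.Agent.Helper68.S0076
open scoped Pointwise

variable {G : Type*} {X : Type*} [Group G] [Fintype G] [Fintype X] [DecidableEq X] [MulAction G X]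

theorem nu_mem (ω : ℝ) (E m u : ℕ) (hω : 0 ≤ ω) (hωE : ω * (E : ℝ) ≤ (m : ℝ)) :
    0 ≤ nu ω E m u ∧ nu ω E m u ≤ 1 := by
  unfold nu
  split_ifs with hu
  · exact ⟨zero_le_one, le_rfl⟩
  · have hm0 : (0 : ℝ) ≤ (m : ℝ) := Nat.cast_nonneg m
    have hsub0 : (0 : ℝ) ≤ ((E - u : ℕ) : ℝ) := Nat.cast_nonneg _
    have hsubE : ((E - u : ℕ) : ℝ) ≤ (E : ℝ) := by
      exact_mod_cast Nat.sub_le E u
    refine ⟨div_nonneg (mul_nonneg hω hsub0) hm0, ?_⟩
    rcases hm0.eq_or_lt with hm | hm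
    · rw [← hm, div_zero]
      exact zero_le_one
    · rw [div_le_one hm]
      calc ω * ((E - u : ℕ) : ℝ) ≤ ω * (E : ℝ) := mul_le_mul_of_nonneg_left hsubE hω
        _ ≤ (m : ℝ) := hωE

theorem qw_nonneg (ω : ℝ) (E : ℕ) (Z U : Finset X) (g : G) (hω : 0 ≤ ω)
    (hωE : ω * (E : ℝ) ≤ (Z.card : ℝ)) : 0 ≤ qw ω E Z U g := by
  unfold qw
  obtain ⟨h0, h1⟩ := nu_mem ω E Z.card U.card hω hωE
  exact mul_nonneg (pow_nonneg h0 _) (pow_nonneg (sub_nonneg.mpr h1) _)

theorem Aseq_nonneg (Z : Finset X) (wt : Finset X → G → ℝ) (hwt : ∀ U g, 0 ≤ wt U g)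
    (T : ℕ) (U : Finset X) : 0 ≤ Aseq Z wt T U := by
  induction T generalizing U with
  | zero =>
    show 0 ≤ (if U = ∅ then (1 : ℝ) else 0)
    split_ifs <;> norm_num
  | succ T ih =>
    show 0 ≤ push Z wt (Aseq Z wt T) U
    unfold push
    refine Finset.sum_nonneg (fun V _ => Finset.sum_nonneg (fun g _ => ?_))
    split_ifs
    · exact mul_nonneg (ih V) (hwt V g)
    · exact le_rfl

theorem Cseq_nonneg (Z : Finset X) (T : ℕ) (U : Finset X) : 0 ≤ Cseq G Z T U := by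
  unfold Cseq
  exact Aseq_nonneg Z _ (fun _ _ => zero_le_one) T U

end Crest.Agent.Helper46.S0076
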