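/-
helper46 — S0076 log-spread squad (coordinator helper68), leaf P: the transfer operator under a sum.
Same name and signature as `Crest.Agent.Helper68.S0076.Blueprint.sum_mul_push`.
-/
import Crest.Agent.Helper68.S0076.Defs

set_option autoImplicit false

namespace Crest.Agent.Helper46.S0076

open Finset Crest.Agent.Helper68.S0076
open scoped Pointwise

variable {G : Type*} {X : Type*} [Group G] [Fintype G] [Fintype X] [DecidableEq X] [MulAction G X]

theorem sum_mul_push (Z : Finset X) (wt : Finset X → G → ℝ) (f h : Finset X → ℝ) :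
    ∑ U' : Finset X, h U' * push Z wt f U'
      = ∑ U : Finset X, ∑ g : G, h (U ∪ g • Z) * (f U * wt U g) := by
  unfold push
  simp_rw [Finset.mul_sum]
  rw [Finset.sum_comm]
  refine Finset.sum_congr rfl (fun U _ => ?_)
  rw [Finset.sum_comm]
  refine Finset.sum_congr rfl (fun g _ => ?_)
  simp_rw [mul_ite, mul_zero]
  rw [Finset.sum_ite_eq]
  simp

end Crest.Agent.Helper46.S0076
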